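import Vale.Agent.Lib.P230.Skew.Defs

/-!
# P230 skew route, module S7: the numerics.
Verified fixed point recursion: the numbers `exp (-μ x²) = r ^ (x²)` for `x ≤ 13000` are bounded by a
recursion in natural numbers with scale `2^80`, evaluated by the kernel.
-/

set_option autoImplicit false

open Finset

namespace Vale.Agent.Lib.P230.Skew101

open Vale.Agent.Lib.P230.Skew
namespace SkewNum

/-- The scale, `2^80`. -/
def Sc : ℕ := 1208925819614629174706176

lemma Sc_pos : (0 : ℝ) < (Sc : ℝ) := by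
  have : 0 < Sc := by decide +kernel
  exact_mod_cast this

/-- Lower recursion: `(a, q, s)` stand for `r^(n^2)`, `r^(2n+1)`, the sum of `r^(x^2)`, `x < n`. -/
def loSeq (ρ : ℕ) : ℕ → ℕ × ℕ × ℕ
  | 0 => (Sc, ρ, 0)
  | n + 1 =>
    match loSeq ρ n with
    | (a, q, s) => (a * q / Sc, q * (ρ * ρ / Sc) / Sc, s + a)

/-- Upper recursion. -/
def hiSeq (ρ : ℕ) : ℕ → ℕ × ℕ × ℕ
  | 0 => (Sc, ρ, 0)
  | n + 1 =>
    match hiSeq ρ n with
    | (a, q, s) => (a * q / Sc + 1, q * (ρ * ρ / Sc + 1) / Sc + 1, s + a)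

/-- Continuation of the lower recursion from a given state. -/
def loFrom (ρ : ℕ) (st : ℕ × ℕ × ℕ) : ℕ → ℕ × ℕ × ℕ
  | 0 => st
  | n + 1 =>
    match loFrom ρ st n with
    | (a, q, s) => (a * q / Sc, q * (ρ * ρ / Sc) / Sc, s + a)

/-- Continuation of the upper recursion from a given state. -/
def hiFrom (ρ : ℕ) (st : ℕ × ℕ × ℕ) : ℕ → ℕ × ℕ × ℕ
  | 0 => st
  | n + 1 =>
    match hiFrom ρ st n with
    | (a, q, s) => (a * q / Sc + 1, q * (ρ * ρ / Sc + 1) / Sc + 1, s + a)

lemma loSeq_add (ρ m n : ℕ) : loSeq ρ (m + n) = loFrom ρ (loSeq ρ m) n := by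
  induction n with
  | zero => rfl
  | succ n ih =>
    have e : loSeq ρ (m + (n + 1)) = match loSeq ρ (m + n) with
      | (a, q, s) => (a * q / Sc, q * (ρ * ρ / Sc) / Sc, s + a) := rfl
    rw [e, ih]
    rfl

lemma hiSeq_add (ρ m n : ℕ) : hiSeq ρ (m + n) = hiFrom ρ (hiSeq ρ m) n := by
  induction n with
  | zero => rfl
  | succ n ih =>
    have e : hiSeq ρ (m + (n + 1)) = match hiSeq ρ (m + n) with
      | (a, q, s) => (a * q / Sc + 1, q * (ρ * ρ / Sc + 1) / Sc + 1, s + a) := rfl
    rw [e, ih]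
    rfl

lemma mul_div_le (A B : ℕ) :
    (((A * B / Sc : ℕ) : ℝ)) / Sc ≤ ((A : ℝ) / Sc) * ((B : ℝ) / Sc) := by
  have h := Sc_pos
  have h1 : (((A * B / Sc : ℕ) : ℝ)) ≤ ((A * B : ℕ) : ℝ) / (Sc : ℝ) := Nat.cast_div_le
  push_cast at h1
  calc (((A * B / Sc : ℕ) : ℝ)) / Sc ≤ ((A : ℝ) * B / Sc) / Sc := by
        exact div_le_div_of_nonneg_right h1 h.le
    _ = _ := by field_simp

lemma le_mul_div (A B : ℕ) :
    ((A : ℝ) / Sc) * ((B : ℝ) / Sc) ≤ (((A * B / Sc + 1 : ℕ) : ℝ)) / Sc := by
  have h := Sc_pos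
  have hn : 0 < Sc := by decide +kernel
  have h1 : A * B < (A * B / Sc + 1) * Sc := by
    have := Nat.lt_mul_div_succ (A * B) hn
    calc A * B < Sc * (A * B / Sc + 1) := this
      _ = _ := Nat.mul_comm _ _
  have h2 : ((A : ℝ) * B) ≤ ((A * B / Sc + 1 : ℕ) : ℝ) * Sc := by exact_mod_cast h1.le
  rw [div_mul_div_comm, div_le_div_iff₀ (by positivity) h]
  nlinarith [mul_le_mul_of_nonneg_right h2 h.le]

lemma lo_spec {r : ℝ} (hr : 0 < r) {ρ : ℕ} (hρ : (ρ : ℝ) / Sc ≤ r) (n : ℕ) :
    (((loSeq ρ n).1 : ℕ) : ℝ) / Sc ≤ r ^ (n ^ 2) ∧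
    (((loSeq ρ n).2.1 : ℕ) : ℝ) / Sc ≤ r ^ (2 * n + 1) ∧
    (((loSeq ρ n).2.2 : ℕ) : ℝ) / Sc ≤ ∑ x ∈ range n, r ^ (x ^ 2) := by
  have hS := Sc_pos
  have hρ2 : (((ρ * ρ / Sc : ℕ) : ℝ)) / Sc ≤ r ^ 2 := by
    refine (mul_div_le ρ ρ).trans ?_
    have h0 : (0 : ℝ) ≤ (ρ : ℝ) / Sc := by positivity
    nlinarith
  induction n with
  | zero =>
    simp only [loSeq]
    refine ⟨?_, ?_, ?_⟩
    · simp [hS.ne']
    · simpa using hρ
    · simp
  | succ n ih =>
    obtain ⟨h1, h2, h3⟩ := ih
    rcases hst : loSeq ρ n with ⟨a, q, s⟩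
    rw [hst] at h1 h2 h3
    simp only [loSeq, hst]
    simp only at h1 h2 h3
    have ha : (0 : ℝ) ≤ (a : ℝ) / Sc := by positivity
    have hq : (0 : ℝ) ≤ (q : ℝ) / Sc := by positivity
    have hp1 : (0 : ℝ) ≤ r ^ (n ^ 2) := by positivity
    have hp2 : (0 : ℝ) ≤ r ^ (2 * n + 1) := by positivity
    refine ⟨?_, ?_, ?_⟩
    · refine (mul_div_le a q).trans ?_
      have : r ^ ((n + 1) ^ 2) = r ^ (n ^ 2) * r ^ (2 * n + 1) := by
        rw [← pow_add]; congr 1; ring
      rw [this]
      exact mul_le_mul h1 h2 hq hp1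
    · refine (mul_div_le q (ρ * ρ / Sc)).trans ?_
      have : r ^ (2 * (n + 1) + 1) = r ^ (2 * n + 1) * r ^ 2 := by
        rw [← pow_add]; congr 1
      rw [this]
      exact mul_le_mul h2 hρ2 (by positivity) hp2
    · rw [sum_range_succ]
      push_cast
      rw [add_div]
      exact add_le_add h3 h1

lemma hi_spec {r : ℝ} (hr : 0 < r) {ρ : ℕ} (hρ : r ≤ (ρ : ℝ) / Sc) (n : ℕ) :
    r ^ (n ^ 2) ≤ (((hiSeq ρ n).1 : ℕ) : ℝ) / Sc ∧
    r ^ (2 * n + 1) ≤ (((hiSeq ρ n).2.1 : ℕ) : ℝ) / Sc ∧
    ∑ x ∈ range n, r ^ (x ^ 2) ≤ (((hiSeq ρ n).2.2 : ℕ) : ℝ) / Sc := by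
  have hS := Sc_pos
  have hρ2 : r ^ 2 ≤ (((ρ * ρ / Sc + 1 : ℕ) : ℝ)) / Sc := by
    refine le_trans ?_ (le_mul_div ρ ρ)
    nlinarith
  induction n with
  | zero =>
    simp only [hiSeq]
    refine ⟨?_, ?_, ?_⟩
    · simp [hS.ne']
    · simpa using hρ
    · simp
  | succ n ih =>
    obtain ⟨h1, h2, h3⟩ := ih
    rcases hst : hiSeq ρ n with ⟨a, q, s⟩
    rw [hst] at h1 h2 h3
    simp only [hiSeq, hst]
    simp only at h1 h2 h3
    have hp1 : (0 : ℝ) ≤ r ^ (n ^ 2) := by positivity
    have hp2 : (0 : ℝ) ≤ r ^ (2 * n + 1) := by positivity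
    refine ⟨?_, ?_, ?_⟩
    · refine le_trans ?_ (le_mul_div a q)
      have : r ^ ((n + 1) ^ 2) = r ^ (n ^ 2) * r ^ (2 * n + 1) := by
        rw [← pow_add]; congr 1; ring
      rw [this]
      exact mul_le_mul h1 h2 hp2 (by positivity)
    · refine le_trans ?_ (le_mul_div q (ρ * ρ / Sc + 1))
      have : r ^ (2 * (n + 1) + 1) = r ^ (2 * n + 1) * r ^ 2 := by
        rw [← pow_add]; congr 1
      rw [this]
      exact mul_le_mul h2 hρ2 (by positivity) (by positivity)
    · rw [sum_range_succ]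
      push_cast
      rw [add_div]
      exact add_le_add h3 h1

lemma exp_sq (μ : ℝ) (x : ℕ) : Real.exp (-(μ * (x : ℝ) ^ 2)) = Real.exp (-μ) ^ (x ^ 2) := by
  rw [← Real.exp_nat_mul]
  congr 1
  push_cast
  ring

/-- Closed form of the mean. -/
lemma Emean_eq (μ : ℝ) :
    Emean 13000 μ = (1 / 13000) * (2 * ∑ x ∈ range 13000, Real.exp (-μ) ^ (x ^ 2)
      + Real.exp (-μ) ^ (13000 ^ 2) - 1) := by
  unfold Emean
  rw [sum_add_distrib]
  have h1 : ∑ x ∈ range 13000, Real.exp (-(μ * (((13000 : ℕ) : ℝ) - (x : ℝ)) ^ 2))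
      = ∑ x ∈ range 13000, Real.exp (-μ) ^ ((x + 1) ^ 2) := by
    rw [← sum_range_reflect]
    refine sum_congr rfl fun x hx => ?_
    have hx' : x < 13000 := mem_range.mp hx
    have hc : (((13000 : ℕ) : ℝ) - ((13000 - 1 - x : ℕ) : ℝ)) = ((x + 1 : ℕ) : ℝ) := by
      have : 13000 - 1 - x + (x + 1) = 13000 := by omega
      have h2 : ((13000 - 1 - x + (x + 1) : ℕ) : ℝ) = ((13000 : ℕ) : ℝ) := by rw [this]
      rw [← h2]
      push_cast
      ring
    rw [hc, exp_sq]
  have h2 : ∑ x ∈ range 13000, Real.exp (-μ) ^ ((x + 1) ^ 2)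
      = ∑ x ∈ range 13000, Real.exp (-μ) ^ (x ^ 2) + Real.exp (-μ) ^ (13000 ^ 2) - 1 := by
    have h3 := sum_range_succ (fun x => Real.exp (-μ) ^ (x ^ 2)) 13000
    have h4 := sum_range_succ' (fun x => Real.exp (-μ) ^ (x ^ 2)) 13000
    rw [h3] at h4
    simp only [ne_eq, OfNat.ofNat_ne_zero, not_false_eq_true, zero_pow, pow_zero] at h4
    linarith
  rw [h1, h2]
  have h3 : ∑ x ∈ range 13000, Real.exp (-(μ * (x : ℝ) ^ 2))
      = ∑ x ∈ range 13000, Real.exp (-μ) ^ (x ^ 2) :=
    sum_congr rfl fun x _ => exp_sq μ x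
  rw [h3]
  push_cast
  ring

/-- Lower bound of the mean by the recursion. -/
lemma Emean_lower {μ : ℝ} {ρ : ℕ} (hρ : (ρ : ℝ) / Sc ≤ Real.exp (-μ)) (L D : ℕ) (hD : 0 < D)
    (hchk : L * 13000 * Sc + D * Sc ≤ D * (2 * (loSeq ρ 13000).2.2 + (loSeq ρ 13000).1)) :
    (L : ℝ) / D ≤ Emean 13000 μ := by
  have hS := Sc_pos
  have hDr : (0 : ℝ) < D := by exact_mod_cast hD
  have h1 := (lo_spec (Real.exp_pos (-μ)) hρ 13000).2.2
  have h2 := (lo_spec (Real.exp_pos (-μ)) hρ 13000).1
  have hc : (L : ℝ) * 13000 * Sc + D * Sc ≤ D * (2 * (((loSeq ρ 13000).2.2 : ℕ) : ℝ)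
      + (((loSeq ρ 13000).1 : ℕ) : ℝ)) := by exact_mod_cast hchk
  set s : ℝ := (((loSeq ρ 13000).2.2 : ℕ) : ℝ) with hs
  set a : ℝ := (((loSeq ρ 13000).1 : ℕ) : ℝ) with ha
  have key : (L : ℝ) / D * 13000 + 1 ≤ 2 * (s / Sc) + a / Sc := by
    have e1 : (L : ℝ) / D * 13000 + 1 = ((L : ℝ) * 13000 * Sc + D * Sc) / (D * Sc) := by
      field_simp
    have e2 : 2 * (s / Sc) + a / Sc = (D * (2 * s + a)) / (D * Sc) := by
      field_simp
    rw [e1, e2]
    exact div_le_div_of_nonneg_right hc (mul_pos hDr hS).le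
  rw [Emean_eq]
  linarith

/-- Upper bound of the mean by the recursion. -/
lemma Emean_upper {μ : ℝ} {ρ : ℕ} (hρ : Real.exp (-μ) ≤ (ρ : ℝ) / Sc) (L D : ℕ) (hD : 0 < D)
    (hchk : D * (2 * (hiSeq ρ 13000).2.2 + (hiSeq ρ 13000).1) ≤ L * 13000 * Sc + D * Sc) :
    Emean 13000 μ ≤ (L : ℝ) / D := by
  have hS := Sc_pos
  have hDr : (0 : ℝ) < D := by exact_mod_cast hD
  have h1 := (hi_spec (Real.exp_pos (-μ)) hρ 13000).2.2
  have h2 := (hi_spec (Real.exp_pos (-μ)) hρ 13000).1
  have hc : (D : ℝ) * (2 * (((hiSeq ρ 13000).2.2 : ℕ) : ℝ)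
      + (((hiSeq ρ 13000).1 : ℕ) : ℝ)) ≤ (L : ℝ) * 13000 * Sc + D * Sc := by exact_mod_cast hchk
  set s : ℝ := (((hiSeq ρ 13000).2.2 : ℕ) : ℝ) with hs
  set a : ℝ := (((hiSeq ρ 13000).1 : ℕ) : ℝ) with ha
  have key : 2 * (s / Sc) + a / Sc ≤ (L : ℝ) / D * 13000 + 1 := by
    have e1 : (L : ℝ) / D * 13000 + 1 = ((L : ℝ) * 13000 * Sc + D * Sc) / (D * Sc) := by
      field_simp
    have e2 : 2 * (s / Sc) + a / Sc = (D * (2 * s + a)) / (D * Sc) := by
      field_simp
    rw [e1, e2]
    exact div_le_div_of_nonneg_right hc (mul_pos hDr hS).le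
  rw [Emean_eq]
  linarith

/-- Closed form of the mean. -/
lemma Emean_eqH (μ : ℝ) :
    Emean 6500 μ = (1 / 6500) * (2 * ∑ x ∈ range 6500, Real.exp (-μ) ^ (x ^ 2)
      + Real.exp (-μ) ^ (6500 ^ 2) - 1) := by
  unfold Emean
  rw [sum_add_distrib]
  have h1 : ∑ x ∈ range 6500, Real.exp (-(μ * (((6500 : ℕ) : ℝ) - (x : ℝ)) ^ 2))
      = ∑ x ∈ range 6500, Real.exp (-μ) ^ ((x + 1) ^ 2) := by
    rw [← sum_range_reflect]
    refine sum_congr rfl fun x hx => ?_
    have hx' : x < 6500 := mem_range.mp hx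
    have hc : (((6500 : ℕ) : ℝ) - ((6500 - 1 - x : ℕ) : ℝ)) = ((x + 1 : ℕ) : ℝ) := by
      have : 6500 - 1 - x + (x + 1) = 6500 := by omega
      have h2 : ((6500 - 1 - x + (x + 1) : ℕ) : ℝ) = ((6500 : ℕ) : ℝ) := by rw [this]
      rw [← h2]
      push_cast
      ring
    rw [hc, exp_sq]
  have h2 : ∑ x ∈ range 6500, Real.exp (-μ) ^ ((x + 1) ^ 2)
      = ∑ x ∈ range 6500, Real.exp (-μ) ^ (x ^ 2) + Real.exp (-μ) ^ (6500 ^ 2) - 1 := by
    have h3 := sum_range_succ (fun x => Real.exp (-μ) ^ (x ^ 2)) 6500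
    have h4 := sum_range_succ' (fun x => Real.exp (-μ) ^ (x ^ 2)) 6500
    rw [h3] at h4
    simp only [ne_eq, OfNat.ofNat_ne_zero, not_false_eq_true, zero_pow, pow_zero] at h4
    linarith
  rw [h1, h2]
  have h3 : ∑ x ∈ range 6500, Real.exp (-(μ * (x : ℝ) ^ 2))
      = ∑ x ∈ range 6500, Real.exp (-μ) ^ (x ^ 2) :=
    sum_congr rfl fun x _ => exp_sq μ x
  rw [h3]
  push_cast
  ring

/-- Upper bound of the mean by the recursion. -/
lemma Emean_upperH {μ : ℝ} {ρ : ℕ} (hρ : Real.exp (-μ) ≤ (ρ : ℝ) / Sc) (L D : ℕ) (hD : 0 < D)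
    (hchk : D * (2 * (hiSeq ρ 6500).2.2 + (hiSeq ρ 6500).1) ≤ L * 6500 * Sc + D * Sc) :
    Emean 6500 μ ≤ (L : ℝ) / D := by
  have hS := Sc_pos
  have hDr : (0 : ℝ) < D := by exact_mod_cast hD
  have h1 := (hi_spec (Real.exp_pos (-μ)) hρ 6500).2.2
  have h2 := (hi_spec (Real.exp_pos (-μ)) hρ 6500).1
  have hc : (D : ℝ) * (2 * (((hiSeq ρ 6500).2.2 : ℕ) : ℝ)
      + (((hiSeq ρ 6500).1 : ℕ) : ℝ)) ≤ (L : ℝ) * 6500 * Sc + D * Sc := by exact_mod_cast hchk
  set s : ℝ := (((hiSeq ρ 6500).2.2 : ℕ) : ℝ) with hs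
  set a : ℝ := (((hiSeq ρ 6500).1 : ℕ) : ℝ) with ha
  have key : 2 * (s / Sc) + a / Sc ≤ (L : ℝ) / D * 6500 + 1 := by
    have e1 : (L : ℝ) / D * 6500 + 1 = ((L : ℝ) * 6500 * Sc + D * Sc) / (D * Sc) := by
      field_simp
    have e2 : 2 * (s / Sc) + a / Sc = (D * (2 * s + a)) / (D * Sc) := by
      field_simp
    rw [e1, e2]
    exact div_le_div_of_nonneg_right hc (mul_pos hDr hS).le
  rw [Emean_eqH]
  linarith

lemma exp_neg_bounds {m : ℝ} (h0 : 0 ≤ m) (h1 : m ≤ 1) :
    1 - m + m ^ 2 / 2 - m ^ 3 / 6 - m ^ 4 * (5 / 96) ≤ Real.exp (-m) ∧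
      Real.exp (-m) ≤ 1 - m + m ^ 2 / 2 - m ^ 3 / 6 + m ^ 4 * (5 / 96) := by
  have habs : |(-m)| ≤ 1 := by rw [abs_neg, abs_of_nonneg h0]; exact h1
  have h := Real.exp_bound habs (n := 4) (by norm_num)
  rw [abs_neg, abs_of_nonneg h0] at h
  have hs : ∑ k ∈ range 4, (-m) ^ k / (k.factorial : ℝ) = 1 - m + m ^ 2 / 2 - m ^ 3 / 6 := by
    simp [sum_range_succ, Nat.factorial]
    ring
  rw [hs] at h
  have h5 : m ^ 4 * ((Nat.succ 4 : ℕ) / ((Nat.factorial 4 : ℕ) * (4 : ℕ)) : ℝ) = m ^ 4 * (5 / 96) := by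
    norm_num [Nat.factorial]
  rw [h5] at h
  rw [abs_le] at h
  constructor <;> linarith [h.1, h.2]

/-- The mixed mean at the double length. -/
lemma Bmean_double (Q' : ℕ) (hQ : 0 < Q') (μ : ℝ) :
    Bmean (Q' + Q') μ = Real.exp (-(μ * (2 * (Q' : ℝ) ^ 2))) * Emean Q' (2 * μ) := by
  have hQr : (0 : ℝ) < (Q' : ℝ) := by exact_mod_cast hQ
  unfold Bmean Emean
  rw [Finset.sum_range_add, ← Finset.sum_add_distrib]
  have hpt : ∀ x ∈ range Q',
      2 * (Real.exp (-(μ * ((x : ℕ) : ℝ) ^ 2)) * Real.exp (-(μ * (((Q' + Q' : ℕ) : ℝ) - ((x : ℕ) : ℝ)) ^ 2))) +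
        2 * (Real.exp (-(μ * ((Q' + x : ℕ) : ℝ) ^ 2)) *
          Real.exp (-(μ * (((Q' + Q' : ℕ) : ℝ) - ((Q' + x : ℕ) : ℝ)) ^ 2))) =
      2 * Real.exp (-(μ * (2 * (Q' : ℝ) ^ 2))) *
        (Real.exp (-(2 * μ * ((x : ℕ) : ℝ) ^ 2)) + Real.exp (-(2 * μ * ((Q' : ℝ) - ((x : ℕ) : ℝ)) ^ 2))) := by
    intro x _
    have e1 : Real.exp (-(μ * ((x : ℕ) : ℝ) ^ 2)) * Real.exp (-(μ * (((Q' + Q' : ℕ) : ℝ) - ((x : ℕ) : ℝ)) ^ 2)) =
        Real.exp (-(μ * (2 * (Q' : ℝ) ^ 2))) * Real.exp (-(2 * μ * ((Q' : ℝ) - ((x : ℕ) : ℝ)) ^ 2)) := by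
      rw [← Real.exp_add, ← Real.exp_add]
      congr 1
      push_cast
      ring
    have e2 : Real.exp (-(μ * ((Q' + x : ℕ) : ℝ) ^ 2)) *
          Real.exp (-(μ * (((Q' + Q' : ℕ) : ℝ) - ((Q' + x : ℕ) : ℝ)) ^ 2)) =
        Real.exp (-(μ * (2 * (Q' : ℝ) ^ 2))) * Real.exp (-(2 * μ * ((x : ℕ) : ℝ) ^ 2)) := by
      rw [← Real.exp_add, ← Real.exp_add]
      congr 1
      push_cast
      ring
    rw [e1, e2]
    ring
  rw [Finset.sum_congr rfl hpt, ← Finset.mul_sum]
  push_cast
  field_simp
  ring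

lemma Emean_nn (Q : ℕ) (μ : ℝ) : 0 ≤ Emean Q μ := by
  unfold Emean
  positivity

/-! The kernel checks, in chunks of 2600 steps. -/

lemma c1_1 : loSeq 1208925782323046107945565 2600 = (981382819040527615113087, 1208731881645703439361804, 2937857448300026164199035819) := by
  decide +kernel

lemma c1_2 : loFrom 1208925782323046107945565 (981382819040527615113087, 1208731881645703439361804, 2937857448300026164199035819) 2600 = (524994607925437011076092, 1208538012068262206992933, 4901795848267897781011130141) := by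
  decide +kernel

lemma c1_3 : loFrom 1208925782323046107945565 (524994607925437011076092, 1208538012068262206992933, 4901795848267897781011130141) 2600 = (185075456875136391436401, 1208344173585734270092804, 5779171856476293483096473344) := by
  decide +kernel

lemma c1_4 : loFrom 1208925782323046107945565 (185075456875136391436401, 1208344173585734270092804, 5779171856476293483096473344) 2600 = (42995243440864533491460, 1208150366193132287967750, 6040994280653800973503166898) := by
  decide +kernel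

lemma c1_5 : loFrom 1208925782323046107945565 (42995243440864533491460, 1208150366193132287967750, 6040994280653800973503166898) 2600 = (6582177495234814272415, 1207956589885469719847966, 6093151373497781492161426967) := by
  decide +kernel

lemma c1_eq : loSeq 1208925782323046107945565 13000 = (6582177495234814272415, 1207956589885469719847966, 6093151373497781492161426967) := by
  have e : loSeq 1208925782323046107945565 13000 = loSeq 1208925782323046107945565 (2600 + 2600 + 2600 + 2600 + 2600) := rfl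
  rw [e, loSeq_add, loSeq_add, loSeq_add, loSeq_add, c1_1, c1_2, c1_3, c1_4, c1_5]

lemma c2_1 : hiSeq 1208925745031464191513739 2600 = (796667770579129084267440, 1208537974788641790969583, 2756108544297709081679695284) := by
  decide +kernel

lemma c2_2 : hiFrom 1208925745031464191513739 (796667770579129084267440, 1208537974788641790969583, 2756108544297709081679695284) 2600 = (227986973128461161857997, 1208150328925469535629310, 4021641986353901495278930087) := by
  decide +kernel

lemma c2_3 : hiFrom 1208925745031464191513739 (227986973128461161857997, 1208150328925469535629310, 4021641986353901495278930087) 2600 = (28333355266131484923410, 1207762807402051900612966, 4287520948431128406523640104) := by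
  decide +kernel

lemma c2_4 : hiFrom 1208925745031464191513739 (28333355266131484923410, 1207762807402051900612966, 4287520948431128406523640104) 2600 = (1529118601444448314430, 1207375410178506157771367, 4312928845024033981801401584) := by
  decide +kernel

lemma c2_5 : hiFrom 1208925745031464191513739 (1529118601444448314430, 1207375410178506157771367, 4312928845024033981801401584) 2600 = (35837650148448691499, 1206988137214962371581567, 4314025509432038417071697475) := by
  decide +kernel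

lemma c2_eq : hiSeq 1208925745031464191513739 13000 = (35837650148448691499, 1206988137214962371581567, 4314025509432038417071697475) := by
  have e : hiSeq 1208925745031464191513739 13000 = hiSeq 1208925745031464191513739 (2600 + 2600 + 2600 + 2600 + 2600) := rfl
  rw [e, hiSeq_add, hiSeq_add, hiSeq_add, hiSeq_add, c2_1, c2_2, c2_3, c2_4, c2_5]

lemma c3_1 : hiSeq 1208925782330601894085108 2600 = (981424283340559256480401, 1208731920937044805723001, 2937896547531202145969331095) := by
  decide +kernel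

lemma c3_2 : hiFrom 1208925782330601894085108 (981424283340559256480401, 1208731920937044805723001, 2937896547531202145969331095) 2600 = (525083339511784286812562, 1208538090630788907549908, 4902015799975481642503144147) := by
  decide +kernel

lemma c3_3 : hiFrom 1208925782330601894085108 (525083339511784286812562, 1208538090630788907549908, 4902015799975481642503144147) 2600 = (185145845199345196393044, 1208344291406849089959624, 5779611032677997694379445469) := by
  decide +kernel

lemma c3_4 : hiFrom 1208925782330601894085108 (185145845199345196393044, 1208344291406849089959624, 5779611032677997694379445469) 2600 = (43024318051541773151051, 1208150523260241042750119, 6041560972597674805037694957) := by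
  decide +kernel

lemma c3_5 : hiFrom 1208925782330601894085108 (43024318051541773151051, 1208150523260241042750119, 6041560972597674805037694957) 2600 = (6589133593256702983934, 1207956786185981254995400, 6093760006394315532316230646) := by
  decide +kernel

lemma c3_eq : hiSeq 1208925782330601894085108 13000 = (6589133593256702983934, 1207956786185981254995400, 6093760006394315532316230646) := by
  have e : hiSeq 1208925782330601894085108 13000 = hiSeq 1208925782330601894085108 (2600 + 2600 + 2600 + 2600 + 2600) := rfl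
  rw [e, hiSeq_add, hiSeq_add, hiSeq_add, hiSeq_add, c3_1, c3_2, c3_3, c3_4, c3_5]

lemma c4_1 : hiSeq 1208925782315490321806070 2600 = (981341356492325659235811, 1208731842354363350230681, 2937818350035812517705412321) := by
  decide +kernel

lemma c4_2 : hiFrom 1208925782315490321806070 (981341356492325659235811, 1208731842354363350230681, 2937818350035812517705412321) 2600 = (524905891333460803926954, 1208537933505740613522831, 4901575916671627853259576749) := by
  decide +kernel

lemma c4_3 : hiFrom 1208925782315490321806070 (524905891333460803926954, 1208537933505740613522831, 4901575916671627853259576749) 2600 = (185005095310999814211841, 1208344055764630938568197, 5778732758124935505462356493) := by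
  decide +kernel

lemma c4_4 : hiFrom 1208925782315490321806070 (185005095310999814211841, 1208344055764630938568197, 5778732758124935505462356493) 2600 = (42966188477982420445620, 1208150209126043952953373, 6040427730289941499035019423) := by
  decide +kernel

lemma c4_5 : hiFrom 1208925782315490321806070 (42966188477982420445620, 1208150209126043952953373, 6040427730289941499035019423) 2600 = (6575228740712495546284, 1207956393584990084837337, 6092542916391710703847539648) := by
  decide +kernel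

lemma c4_eq : hiSeq 1208925782315490321806070 13000 = (6575228740712495546284, 1207956393584990084837337, 6092542916391710703847539648) := by
  have e : hiSeq 1208925782315490321806070 13000 = hiSeq 1208925782315490321806070 (2600 + 2600 + 2600 + 2600 + 2600) := rfl
  rw [e, hiSeq_add, hiSeq_add, hiSeq_add, hiSeq_add, c4_1, c4_2, c4_3, c4_4, c4_5]

lemma c5_1 : hiSeq 1208925745031464191513739 2600 = (796667770579129084267440, 1208537974788641790969583, 2756108544297709081679695284) := by
  decide +kernel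

lemma c5_2 : hiFrom 1208925745031464191513739 (796667770579129084267440, 1208537974788641790969583, 2756108544297709081679695284) 2600 = (227986973128461161857997, 1208150328925469535629310, 4021641986353901495278930087) := by
  decide +kernel

lemma c5_3 : hiFrom 1208925745031464191513739 (227986973128461161857997, 1208150328925469535629310, 4021641986353901495278930087) 1300 = (89204060015650164144748, 1207956552623784360965249, 4217307670921899187039908135) := by
  decide +kernel

lemma c5_eq : hiSeq 1208925745031464191513739 6500 = (89204060015650164144748, 1207956552623784360965249, 4217307670921899187039908135) := by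
  have e : hiSeq 1208925745031464191513739 6500 = hiSeq 1208925745031464191513739 (2600 + 2600 + 1300) := rfl
  rw [e, hiSeq_add, hiSeq_add, c5_1, c5_2, c5_3]


lemma chk1 : 775329139666 * 13000 * Sc + 1000000000000 * Sc ≤
    1000000000000 * (2 * (loSeq 1208925782323046107945565 13000).2.2
      + (loSeq 1208925782323046107945565 13000).1) := by
  rw [c1_eq]
  decide +kernel

lemma chk2 : 1000000000000 * (2 * (hiSeq 1208925745031464191513739 13000).2.2
      + (hiSeq 1208925745031464191513739 13000).1) ≤ 548919735121 * 13000 * Sc + 1000000000000 * Sc := by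
  rw [c2_eq]
  decide +kernel

lemma chk3 : 1000000000000 * (2 * (hiSeq 1208925782330601894085108 13000).2.2
      + (hiSeq 1208925782330601894085108 13000).1) ≤ 775406593853 * 13000 * Sc + 1000000000000 * Sc := by
  rw [c3_eq]
  decide +kernel

lemma chk4 : 1000000000000 * (2 * (hiSeq 1208925782315490321806070 13000).2.2
      + (hiSeq 1208925782315490321806070 13000).1) ≤ 775251707852 * 13000 * Sc + 1000000000000 * Sc := by
  rw [c4_eq]
  decide +kernel

lemma chk5 : 1000000000000 * (2 * (hiSeq 1208925745031464191513739 6500).2.2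
      + (hiSeq 1208925745031464191513739 6500).1) ≤ 1073234472767 * 6500 * Sc + 1000000000000 * Sc := by
  rw [c5_eq]
  decide +kernel

lemma E1_lower : (775329139666 / 1000000000000 : ℝ) ≤ Emean 13000 (9871 / 320000000000) := by
  have hρ : (((1208925782323046107945565 : ℕ) : ℝ)) / (Sc : ℝ) ≤ Real.exp (-(9871 / 320000000000)) := by
    refine le_trans ?_ (exp_neg_bounds (m := 9871 / 320000000000) (by norm_num) (by norm_num)).1
    norm_num [Sc]
  have h := Emean_lower hρ 775329139666 1000000000000 (by norm_num) chk1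
  norm_num at h ⊢
  exact h

lemma E2_upper : Emean 13000 (9871 / 160000000000) ≤ (548919735121 / 1000000000000 : ℝ) := by
  have hρ : Real.exp (-(9871 / 160000000000)) ≤ (((1208925745031464191513739 : ℕ) : ℝ)) / (Sc : ℝ) := by
    refine le_trans (exp_neg_bounds (m := 9871 / 160000000000) (by norm_num) (by norm_num)).2 ?_
    norm_num [Sc]
  have h := Emean_upper hρ 548919735121 1000000000000 (by norm_num) chk2
  norm_num at h ⊢
  exact h

lemma E3_upper : Emean 13000 (9869 / 320000000000) ≤ (775406593853 / 1000000000000 : ℝ) := by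
  have hρ : Real.exp (-(9869 / 320000000000)) ≤ (((1208925782330601894085108 : ℕ) : ℝ)) / (Sc : ℝ) := by
    refine le_trans (exp_neg_bounds (m := 9869 / 320000000000) (by norm_num) (by norm_num)).2 ?_
    norm_num [Sc]
  have h := Emean_upper hρ 775406593853 1000000000000 (by norm_num) chk3
  norm_num at h ⊢
  exact h

lemma E4_upper : Emean 13000 (9873 / 320000000000) ≤ (775251707852 / 1000000000000 : ℝ) := by
  have hρ : Real.exp (-(9873 / 320000000000)) ≤ (((1208925782315490321806070 : ℕ) : ℝ)) / (Sc : ℝ) := by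
    refine le_trans (exp_neg_bounds (m := 9873 / 320000000000) (by norm_num) (by norm_num)).2 ?_
    norm_num [Sc]
  have h := Emean_upper hρ 775251707852 1000000000000 (by norm_num) chk4
  norm_num at h ⊢
  exact h

lemma E5_upper : Emean 6500 (9871 / 160000000000) ≤ (1073234472767 / 1000000000000 : ℝ) := by
  have hρ : Real.exp (-(9871 / 160000000000)) ≤ (((1208925745031464191513739 : ℕ) : ℝ)) / (Sc : ℝ) := by
    refine le_trans (exp_neg_bounds (m := 9871 / 160000000000) (by norm_num) (by norm_num)).2 ?_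
    norm_num [Sc]
  have h := Emean_upperH hρ 1073234472767 1000000000000 (by norm_num) chk5
  norm_num at h ⊢
  exact h

lemma exp_neg_crude : Real.exp (-(1668199 / 640000 : ℝ)) ≤ 739 / 10000 := by
  have h := Real.sum_le_exp_of_nonneg (x := (1668199 / 640000 : ℝ)) (by norm_num) 14
  have h' : (1 / (739 / 10000) : ℝ) ≤ Real.exp (1668199 / 640000) := by
    refine le_trans ?_ h
    simp only [sum_range_succ, sum_range_zero, Nat.factorial]
    norm_num
  rw [Real.exp_neg]
  calc (Real.exp (1668199 / 640000))⁻¹ ≤ (1 / (739 / 10000) : ℝ)⁻¹ :=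
        inv_anti₀ (by norm_num) h'
    _ = 739 / 10000 := by norm_num

lemma B_upper : Bmean 13000 (9871 / 320000000000) ≤ (739 / 10000) * (1073234472767 / 1000000000000 : ℝ) := by
  have e : Bmean 13000 (9871 / 320000000000) =
      Real.exp (-((9871 / 320000000000 : ℝ) * (2 * ((6500 : ℕ) : ℝ) ^ 2))) * Emean 6500 (2 * (9871 / 320000000000)) :=
    Bmean_double 6500 (by norm_num) (9871 / 320000000000)
  have h1 : ((9871 / 320000000000 : ℝ) * (2 * ((6500 : ℕ) : ℝ) ^ 2)) = 1668199 / 640000 := by norm_num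
  have h2 : (2 * (9871 / 320000000000) : ℝ) = 9871 / 160000000000 := by norm_num
  rw [e, h1, h2]
  exact mul_le_mul exp_neg_crude E5_upper (Emean_nn _ _) (by norm_num)

end SkewNum

open SkewNum in
/-- The numerics of the tuned route. -/
theorem skew101_numerics :
    let Q : ℕ := 13000
    let μ : ℝ := 9871 / 320000000000
    let θ : ℝ := 1 / 160000000000
    2 * Emean Q (2 * μ) + Bmean Q μ ≤ 2 * Emean Q μ ^ 2 ∧
    Real.exp (-((1 / 10000) * (9991 / 10000))) * Emean Q (μ - θ) < Emean Q μ ∧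
    Real.exp ((1 / 10000) * (99865 / 100000)) * Emean Q (μ + θ) < Emean Q μ ∧
    (12692 / 10000 : ℝ) < Emean Q μ * Real.exp ((9871 / 20000) * (99865 / 100000)) := by
  intro Q μ θ
  have e2 : (2 * μ : ℝ) = 9871 / 160000000000 := by simp only [μ]; norm_num
  have e3 : (μ - θ : ℝ) = 9869 / 320000000000 := by simp only [μ, θ]; norm_num
  have e4 : (μ + θ : ℝ) = 9873 / 320000000000 := by simp only [μ, θ]; norm_num
  have hE : (775329139666 / 1000000000000 : ℝ) ≤ Emean Q μ := E1_lower
  have hE0 : (0 : ℝ) < Emean Q μ := lt_of_lt_of_le (by norm_num) hE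
  have hsq : (775329139666 / 1000000000000 : ℝ) ^ 2 ≤ Emean Q μ ^ 2 :=
    pow_le_pow_left₀ (by norm_num) hE 2
  have hU2 : Emean Q (2 * μ) ≤ (548919735121 / 1000000000000 : ℝ) := by rw [e2]; exact E2_upper
  have hU3 : Emean Q (μ - θ) ≤ (775406593853 / 1000000000000 : ℝ) := by rw [e3]; exact E3_upper
  have hU4 : Emean Q (μ + θ) ≤ (775251707852 / 1000000000000 : ℝ) := by rw [e4]; exact E4_upper
  have hB : Bmean Q μ ≤ (739 / 10000) * (1073234472767 / 1000000000000 : ℝ) := B_upper
  refine ⟨?_, ?_, ?_, ?_⟩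
  · have : 2 * (548919735121 / 1000000000000 : ℝ) + (739 / 10000) * (1073234472767 / 1000000000000 : ℝ) ≤ 2 * (775329139666 / 1000000000000 : ℝ) ^ 2 := by
      norm_num
    exact (add_le_add (mul_le_mul_of_nonneg_left hU2 (by norm_num)) hB).trans
      (this.trans (mul_le_mul_of_nonneg_left hsq (by norm_num)))
  · have hx : ((1 / 10000 : ℝ)) * (9991 / 10000) = 9991 / 100000000 := by norm_num
    rw [hx]
    have hb := (exp_neg_bounds (m := 9991 / 100000000) (by norm_num) (by norm_num)).2
    have hE3nn : 0 ≤ Emean Q (μ - θ) := Emean_nn _ _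
    have h1 : Real.exp (-(9991 / 100000000)) * Emean Q (μ - θ)
        ≤ (1 - 9991 / 100000000 + (9991 / 100000000 : ℝ) ^ 2 / 2 - (9991 / 100000000 : ℝ) ^ 3 / 6
            + (9991 / 100000000 : ℝ) ^ 4 * (5 / 96)) * (775406593853 / 1000000000000) :=
      mul_le_mul hb hU3 hE3nn (by norm_num)
    have h2 : (1 - 9991 / 100000000 + (9991 / 100000000 : ℝ) ^ 2 / 2 - (9991 / 100000000 : ℝ) ^ 3 / 6
            + (9991 / 100000000 : ℝ) ^ 4 * (5 / 96)) * (775406593853 / 1000000000000)
        < 775329139666 / 1000000000000 := by norm_num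
    linarith
  · have hx : ((1 / 10000 : ℝ)) * (99865 / 100000) = 19973 / 200000000 := by norm_num
    rw [hx]
    have hb := Real.exp_bound' (x := (19973 / 200000000 : ℝ)) (by norm_num) (by norm_num) (n := 3) (by norm_num)
    have hb' : Real.exp (19973 / 200000000) ≤ 1 + 19973 / 200000000 + (19973 / 200000000 : ℝ) ^ 2 / 2
        + (19973 / 200000000 : ℝ) ^ 3 * 4 / 18 := by
      refine hb.trans (le_of_eq ?_)
      simp only [sum_range_succ, sum_range_zero, Nat.factorial]
      norm_num
    have hE4nn : 0 ≤ Emean Q (μ + θ) := Emean_nn _ _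
    have h1 : Real.exp (19973 / 200000000) * Emean Q (μ + θ)
        ≤ (1 + 19973 / 200000000 + (19973 / 200000000 : ℝ) ^ 2 / 2
        + (19973 / 200000000 : ℝ) ^ 3 * 4 / 18) * (775251707852 / 1000000000000) :=
      mul_le_mul hb' hU4 hE4nn (by norm_num)
    have h2 : (1 + 19973 / 200000000 + (19973 / 200000000 : ℝ) ^ 2 / 2
        + (19973 / 200000000 : ℝ) ^ 3 * 4 / 18) * (775251707852 / 1000000000000)
        < 775329139666 / 1000000000000 := by norm_num
    linarith
  · have hb := Real.sum_le_exp_of_nonneg (x := ((9871 / 20000 : ℝ)) * (99865 / 100000)) (by norm_num) 10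
    have hb' : (16370301 / 10000000 : ℝ) ≤ Real.exp ((9871 / 20000) * (99865 / 100000)) := by
      refine le_trans ?_ hb
      simp only [sum_range_succ, sum_range_zero, Nat.factorial]
      norm_num
    have h1 : (775329139666 / 1000000000000 : ℝ) * (16370301 / 10000000) ≤
        Emean Q μ * Real.exp ((9871 / 20000) * (99865 / 100000)) :=
      mul_le_mul hE hb' (by norm_num) hE0.le
    have h2 : (12692 / 10000 : ℝ) < (775329139666 / 1000000000000 : ℝ) * (16370301 / 10000000) := by norm_num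
    linarith

end Vale.Agent.Lib.P230.Skew101
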