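import Vale.Agent.Lib.P230.Skew.Height
import Vale.Agent.Lib.P230.Skew31.Shears
import Vale.Agent.Lib.P230.Skew101.Numerics

/-!
# P230 skew route with tuned constants: the lattice of the window coordinates.
Same proof as `Skew.height_lattice` with `Q = 13000`, unit `1/4000`, the tilt `9871/20000`, the band `99865/100000`, `9991/10000`, and the base `12692/10000`.
-/

set_option autoImplicit false

open MeasureTheory Finset
open scoped Matrix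

namespace Vale.Agent.Lib.P230.Skew101

open Vale.Agent.Lib.P230.Skew

variable {t : ℕ}

lemma small_aux101 (t k i₀ : ℕ) (hi₀ : i₀ + k = t) (h2pow : 16 * (14 * t + 1) ≤ 2 ^ k) :
    (1 - (1 / 16 : ℝ)) ^ (2 ^ k) * ((13000 : ℕ) : ℝ) ^ (i₀ + k) < 1 := by
  have h0 : (1 - (1 / 16 : ℝ)) ^ 16 ≤ 1 / 2 := by norm_num
  have h1 : (1 - (1 / 16 : ℝ)) ^ (2 ^ k) ≤ (1 / 2 : ℝ) ^ (14 * t + 1) := by
    calc (1 - (1 / 16 : ℝ)) ^ (2 ^ k) ≤ (1 - (1 / 16 : ℝ)) ^ (16 * (14 * t + 1)) :=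
          pow_le_pow_of_le_one (by norm_num) (by norm_num) h2pow
      _ = ((1 - (1 / 16 : ℝ)) ^ 16) ^ (14 * t + 1) := pow_mul _ _ _
      _ ≤ (1 / 2 : ℝ) ^ (14 * t + 1) := pow_le_pow_left₀ (by norm_num) h0 _
  have h3 : ((13000 : ℕ) : ℝ) ^ (i₀ + k) ≤ (2 : ℝ) ^ (14 * t) := by
    rw [hi₀, mul_comm 14 t, pow_mul']
    apply pow_le_pow_left₀ (by norm_num)
    norm_num
  calc (1 - (1 / 16 : ℝ)) ^ (2 ^ k) * ((13000 : ℕ) : ℝ) ^ (i₀ + k)
      ≤ (1 / 2 : ℝ) ^ (14 * t + 1) * (2 : ℝ) ^ (14 * t) :=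
        mul_le_mul h1 h3 (by positivity) (by positivity)
    _ = 1 / 2 := by
        rw [pow_succ, mul_assoc, mul_comm, mul_assoc]
        have : (2 : ℝ) ^ (14 * t) * (1 / 2 : ℝ) ^ (14 * t) = 1 := by
          rw [← mul_pow]; norm_num
        rw [this]
        norm_num
    _ < 1 := by norm_num

lemma two_pow_aux101 (t k K : ℕ) (htk : t < K * (k + 1)) (hk6 : 6 ≤ k) (hkA : 16 * (14 * K + 1) ≤ k) :
    16 * (14 * t + 1) ≤ 2 ^ k := by
  have h1 : (k + 1) ^ 2 ≤ 2 ^ k := sq_le_two_pow k hk6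
  have h3 : t + 1 ≤ K * (k + 1) := htk
  have h5 : 16 * (14 * (K * (k + 1)) + 1) ≤ (16 * (14 * K + 1)) * (k + 1) := by nlinarith
  have h6 : (16 * (14 * K + 1)) * (k + 1) ≤ (k + 1) * (k + 1) :=
    Nat.mul_le_mul_right _ (by omega)
  have h7 : (k + 1) * (k + 1) = (k + 1) ^ 2 := (sq _).symm
  have h8 : 16 * (14 * t + 1) ≤ 16 * (14 * (K * (k + 1)) + 1) := by omega
  omega

lemma gen_abs_le101 (b' : Fin t → Fin t → ℤ) (hb' : ∀ i j, 0 ≤ b' i j ∧ b' i j < ((13000 : ℕ) : ℤ)) (i j : Fin t) :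
    |(1 / 4000 : ℝ) * ((gen 13000 b' j i : ℤ) : ℝ)| ≤ 13 / 4 := by
  have h1 : |((gen 13000 b' j i : ℤ) : ℝ)| ≤ 13000 := by
    have h3 : |gen 13000 b' j i| ≤ 13000 := by
      simp only [gen]
      split_ifs with h4 h5
      · norm_num
      · obtain ⟨h6, h7⟩ := hb' j i
        rw [abs_of_nonneg h6]
        have : ((13000 : ℕ) : ℤ) = 13000 := by norm_num
        omega
      · norm_num
    exact_mod_cast h3
  rw [abs_mul]
  have h3 : |(1 / 4000 : ℝ)| = 1 / 4000 := abs_of_pos (by norm_num)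
  rw [h3]
  linarith

/-- Pointwise estimate after rounding. -/
lemma round_sq101 (w f : ℝ) : (w + f) ^ 2 ≤ (4001 / 4000) * w ^ 2 + 4001 * f ^ 2 := by
  nlinarith [sq_nonneg (w - 4000 * f)]

lemma leaf_big101 (ξ : ℝ) (hξ : 1 < ξ) (D D' k i₀ : ℕ) (hD : (12692 / 10000 : ℝ) < ξ ^ D) (hD' : (4 : ℝ) < ξ ^ D')
    (hi₀D : D * k + D' ≤ i₀) :
    (12692 / 10000 : ℝ) ^ (i₀ + k) ≤ (1 / 4) * (ξ * (12692 / 10000)) ^ i₀ := by
  have h4 : (4 : ℝ) * (12692 / 10000 : ℝ) ^ k ≤ ξ ^ i₀ := by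
    calc (4 : ℝ) * (12692 / 10000 : ℝ) ^ k ≤ ξ ^ D' * (ξ ^ D) ^ k := by
          apply mul_le_mul hD'.le _ (by positivity) (by positivity)
          exact pow_le_pow_left₀ (by norm_num) hD.le k
      _ = ξ ^ (D * k + D') := by rw [pow_add, pow_mul]; ring
      _ ≤ ξ ^ i₀ := pow_le_pow_right₀ hξ.le hi₀D
  rw [mul_pow, pow_add]
  have h5 : (0 : ℝ) < (12692 / 10000 : ℝ) ^ i₀ := by positivity
  nlinarith [mul_le_mul_of_nonneg_right h4 h5.le]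

lemma term_bound101 (b' : Fin t → Fin t → ℤ) (a : Fin t → ℝ) (z : Fin t → ℤ) (i : Fin t) :
    ((Tmat 13000 b' (1 / 4000)).mulVec (fun j => a j - (z j : ℝ)) i) ^ 2 ≤
      (1 / 16000000) * ((4001 / 4000) * ((((fun i => ⌊4000 * (Tmat 13000 b' (1 / 4000)).mulVec a i⌋) -
        lin 13000 b' z) i : ℤ) : ℝ) ^ 2 + 4001) := by
  obtain ⟨y, hy⟩ : ∃ y : Fin t → ℤ, y = fun i => ⌊4000 * (Tmat 13000 b' (1 / 4000)).mulVec a i⌋ := ⟨_, rfl⟩
  rw [← hy]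
  have h1 : (fun j => a j - (z j : ℝ)) = a - (fun j => (z j : ℝ)) := rfl
  rw [h1, Matrix.mulVec_sub, Pi.sub_apply, Tmat_int]
  obtain ⟨f, hf⟩ : ∃ f : ℝ, f = Int.fract (4000 * (Tmat 13000 b' (1 / 4000)).mulVec a i) := ⟨_, rfl⟩
  have hf0 : 0 ≤ f := hf ▸ Int.fract_nonneg _
  have hf1 : f < 1 := hf ▸ Int.fract_lt_one _
  have hyi : 4000 * (Tmat 13000 b' (1 / 4000)).mulVec a i = (y i : ℝ) + f := by
    rw [hf, hy]
    exact (Int.floor_add_fract _).symm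
  have h3 : (Tmat 13000 b' (1 / 4000)).mulVec a i - 1 / 4000 * ((lin 13000 b' z i : ℤ) : ℝ) =
      (1 / 4000) * (((y - lin 13000 b' z) i : ℤ) + f) := by
    have h4 : (Tmat 13000 b' (1 / 4000)).mulVec a i = (1 / 4000) * ((y i : ℝ) + f) := by
      rw [← hyi]; ring
    rw [h4, Pi.sub_apply]
    push_cast
    ring
  rw [h3, mul_pow]
  have h4 := round_sq101 (((y - lin 13000 b' z) i : ℤ) : ℝ) f
  have h5 : f ^ 2 ≤ 1 := by nlinarith
  have h6 : ((1 / 4000 : ℝ)) ^ 2 = 1 / 16000000 := by norm_num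
  rw [h6]
  apply mul_le_mul_of_nonneg_left _ (by norm_num)
  linarith

lemma sum_bound101 (b' : Fin t → Fin t → ℤ) (a : Fin t → ℝ) (z : Fin t → ℤ) :
    ∑ i, ((Tmat 13000 b' (1 / 4000)).mulVec (fun j => a j - (z j : ℝ)) i) ^ 2 ≤
      (1 / 16000000) * ((4001 / 4000) * hgt t ((fun i => ⌊4000 * (Tmat 13000 b' (1 / 4000)).mulVec a i⌋) -
        lin 13000 b' z) + 4001 * t) := by
  obtain ⟨y, hy⟩ : ∃ y : Fin t → ℤ, y = fun i => ⌊4000 * (Tmat 13000 b' (1 / 4000)).mulVec a i⌋ := ⟨_, rfl⟩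
  have hterm := term_bound101 b' a z
  rw [← hy] at hterm ⊢
  have hhgt : hgt t (y - lin 13000 b' z) = ∑ i : Fin t, (((y - lin 13000 b' z) i : ℤ) : ℝ) ^ 2 := by
    simp only [hgt]
    exact Finset.sum_congr rfl fun j _ => if_pos j.isLt
  calc ∑ i, ((Tmat 13000 b' (1 / 4000)).mulVec (fun j => a j - (z j : ℝ)) i) ^ 2
      ≤ ∑ i : Fin t, (1 / 16000000) * ((4001 / 4000) * ((y - lin 13000 b' z) i : ℝ) ^ 2 + 4001) :=
        Finset.sum_le_sum fun i _ => hterm i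
    _ = (1 / 16000000) * ((4001 / 4000) * hgt t (y - lin 13000 b' z) + 4001 * t) := by
        rw [hhgt, ← Finset.mul_sum, Finset.sum_add_distrib, ← Finset.mul_sum]
        simp only [Finset.sum_const, Finset.card_univ, Fintype.card_fin, nsmul_eq_mul]
        ring

lemma lattice_of_good101 (b' : Fin t → Fin t → ℤ) (i₀ k : ℕ) (hi₀ : i₀ + k = t) (hk62500 : 500000 * k ≤ t) (T₀ : ℝ)
    (hgood : ∀ y, Good 13000 b' t T₀ ((9991 / 10000) * (i₀ : ℝ) * 16000000 + (k : ℝ) * ((13000 : ℕ) : ℝ) ^ 2) y)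
    (a : Fin t → ℝ) : ∃ A : Finset (Fin t → ℤ), TreeShape t t A ∧
      T₀ ≤ ((A.filter fun z =>
        ∑ i, ((Tmat 13000 b' (1 / 4000)).mulVec (fun j => a j - (z j : ℝ)) i) ^ 2 ≤ (99962 / 100000) * (t : ℝ)).card : ℝ) := by
  classical
  obtain ⟨A, hA, hAcard⟩ := hgood (fun i => ⌊4000 * (Tmat 13000 b' (1 / 4000)).mulVec a i⌋)
  refine ⟨A, hA, ?_⟩
  have hincl : (A.filter fun z => hgt t ((fun i => ⌊4000 * (Tmat 13000 b' (1 / 4000)).mulVec a i⌋) - lin 13000 b' z) ≤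
        (9991 / 10000) * (i₀ : ℝ) * 16000000 + (k : ℝ) * ((13000 : ℕ) : ℝ) ^ 2) ⊆
      (A.filter fun z => ∑ i, ((Tmat 13000 b' (1 / 4000)).mulVec (fun j => a j - (z j : ℝ)) i) ^ 2 ≤
        (99962 / 100000) * (t : ℝ)) := by
    intro z hz
    rw [Finset.mem_filter] at hz ⊢
    refine ⟨hz.1, ?_⟩
    have hz2 := hz.2
    refine (sum_bound101 b' a z).trans ?_
    have h1 : ((i₀ : ℝ)) + (k : ℝ) = t := by exact_mod_cast hi₀
    have h3 : (500000 : ℝ) * (k : ℝ) ≤ t := by exact_mod_cast hk62500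
    have h4 : (0 : ℝ) ≤ (k : ℝ) := Nat.cast_nonneg _
    have h5 : ((13000 : ℕ) : ℝ) = 13000 := by norm_num
    rw [h5] at hz2
    have h6 : (0 : ℝ) ≤ (t : ℝ) := Nat.cast_nonneg _
    nlinarith
  calc T₀ ≤ _ := hAcard
    _ ≤ _ := by exact_mod_cast Finset.card_le_card hincl

theorem height_lattice101 : ∃ t₀ : ℕ, ∀ t ≥ t₀, ∃ T : Matrix (Fin t) (Fin t) ℝ,
    T.det = (13 / 4 : ℝ) ^ t ∧ (∀ i j, |T i j| ≤ 13 / 4) ∧
    ∀ a : Fin t → ℝ, ∃ A : Finset (Fin t → ℤ), TreeShape t t A ∧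
      (12692 / 10000 : ℝ) ^ t ≤ ((A.filter fun z =>
        ∑ i, (T.mulVec (fun j => a j - (z j : ℝ)) i) ^ 2 ≤ (99962 / 100000) * (t : ℝ)).card : ℝ) := by
  classical
  have hnum : 2 * Emean 13000 (2 * (9871 / 320000000000 : ℝ)) + Bmean 13000 (9871 / 320000000000) ≤ 2 * Emean 13000 (9871 / 320000000000) ^ 2 ∧
      Real.exp (-((1 / 10000) * (9991 / 10000))) * Emean 13000 ((9871 / 320000000000 : ℝ) - 1 / 160000000000) <
        Emean 13000 (9871 / 320000000000) ∧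
      Real.exp ((1 / 10000) * (99865 / 100000)) * Emean 13000 ((9871 / 320000000000 : ℝ) + 1 / 160000000000) <
        Emean 13000 (9871 / 320000000000) ∧
      (12692 / 10000 : ℝ) < Emean 13000 (9871 / 320000000000) * Real.exp ((9871 / 20000) * (99865 / 100000)) := skew101_numerics
  obtain ⟨h2, hκ1, hκ2, hG⟩ := hnum
  obtain ⟨μ, hμdef⟩ : ∃ μ : ℝ, μ = 9871 / 320000000000 := ⟨_, rfl⟩
  obtain ⟨θ, hθdef⟩ : ∃ θ : ℝ, θ = 1 / 160000000000 := ⟨_, rfl⟩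
  rw [← hμdef, ← hθdef] at hκ1 hκ2
  rw [← hμdef] at h2 hG
  obtain ⟨E, hEdef⟩ : ∃ E : ℝ, E = Emean 13000 μ := ⟨_, rfl⟩
  have hE0' : 0 ≤ E := hEdef ▸ Emean_nonneg 13000 μ
  have hexp0 : 0 < Real.exp ((9871 / 20000) * (99865 / 100000)) := Real.exp_pos _
  have hE : 0 < E := by
    rcases hE0'.eq_or_lt with h | h
    · rw [← hEdef, ← h] at hG
      norm_num at hG
    · exact h
  rw [← hEdef] at hκ1 hκ2 hG h2
  -- the decay rates
  obtain ⟨κ₁, hκ₁def⟩ : ∃ κ₁ : ℝ, κ₁ = Real.exp (-((1 / 10000) * (9991 / 10000))) * Emean 13000 (μ - θ) / E :=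
    ⟨_, rfl⟩
  obtain ⟨κ₂, hκ₂def⟩ : ∃ κ₂ : ℝ, κ₂ = Real.exp ((1 / 10000) * (99865 / 100000)) * Emean 13000 (μ + θ) / E :=
    ⟨_, rfl⟩
  have hκ₁0 : 0 ≤ κ₁ := by
    rw [hκ₁def]
    exact div_nonneg (mul_nonneg (Real.exp_pos _).le (Emean_nonneg _ _)) hE.le
  have hκ₂0 : 0 ≤ κ₂ := by
    rw [hκ₂def]
    exact div_nonneg (mul_nonneg (Real.exp_pos _).le (Emean_nonneg _ _)) hE.le
  have hκ₁1 : κ₁ < 1 := by
    rw [hκ₁def, div_lt_one hE]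
    exact hκ1
  have hκ₂1 : κ₂ < 1 := by
    rw [hκ₂def, div_lt_one hE]
    exact hκ2
  have hev1 : ∀ᶠ i : ℕ in Filter.atTop, 256 * κ₁ ^ i ≤ 1 := by
    have := tendsto_pow_atTop_nhds_zero_of_lt_one hκ₁0 hκ₁1
    have h3 := this.const_mul 256
    rw [mul_zero] at h3
    exact h3.eventually (ge_mem_nhds (by norm_num))
  have hev2 : ∀ᶠ i : ℕ in Filter.atTop, 256 * κ₂ ^ i ≤ 1 := by
    have := tendsto_pow_atTop_nhds_zero_of_lt_one hκ₂0 hκ₂1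
    have h3 := this.const_mul 256
    rw [mul_zero] at h3
    exact h3.eventually (ge_mem_nhds (by norm_num))
  obtain ⟨i₁, hi₁⟩ := Filter.eventually_atTop.1 (hev1.and hev2)
  -- the growth
  obtain ⟨Gh, hGhdef⟩ : ∃ Gh : ℝ, Gh = E * Real.exp ((9871 / 20000) * (99865 / 100000)) := ⟨_, rfl⟩
  rw [← hGhdef] at hG
  have hGh0 : 0 < Gh := by linarith
  have hξ : 1 < Gh / (12692 / 10000) := by
    rw [one_lt_div (by norm_num)]
    exact hG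
  obtain ⟨D, hD⟩ := pow_unbounded_of_one_lt (12692 / 10000 : ℝ) hξ
  obtain ⟨D', hD'⟩ := pow_unbounded_of_one_lt (4 : ℝ) hξ
  -- the number of squaring levels
  obtain ⟨K, hKdef⟩ : ∃ K : ℕ, K = 500000 + 2 * (D + 1) := ⟨_, rfl⟩
  have hK0 : 0 < K := by omega
  obtain ⟨Ak, hAk⟩ : ∃ Ak : ℕ, Ak = 16 * (14 * K + 1) := ⟨_, rfl⟩
  obtain ⟨k₁, hk₁⟩ : ∃ k₁ : ℕ, k₁ = max 6 Ak := ⟨_, rfl⟩
  refine ⟨K * k₁ + 2 * i₁ + 2 * D' + 1, fun t ht => ?_⟩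
  obtain ⟨k, hkdef⟩ : ∃ k : ℕ, k = t / K := ⟨_, rfl⟩
  have hKk : K * k ≤ t := by
    rw [hkdef]
    exact Nat.mul_div_le t K
  have htk : t < K * (k + 1) := by
    rw [hkdef]
    exact Nat.lt_mul_div_succ t hK0
  have hkk₁ : k₁ ≤ k := by
    rw [hkdef, Nat.le_div_iff_mul_le hK0]
    have : k₁ * K = K * k₁ := Nat.mul_comm _ _
    omega
  have hk6 : 6 ≤ k := by
    have : 6 ≤ k₁ := by
      rw [hk₁]
      exact le_max_left _ _
    omega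
  have hkA : Ak ≤ k := by
    have : Ak ≤ k₁ := by
      rw [hk₁]
      exact le_max_right _ _
    omega
  have h2k : k * 2 ≤ t := by
    have h3 : (500000 + 2 * (D + 1)) * k ≤ t := by rw [← hKdef]; exact hKk
    nlinarith
  obtain ⟨i₀, hi₀⟩ : ∃ i₀ : ℕ, i₀ + k = t := ⟨t - k, by omega⟩
  have hi₀1 : i₁ ≤ i₀ := by omega
  have hi₀t : i₀ ≤ t := by omega
  have hi₀D : D * k + D' ≤ i₀ := by
    have h3 : (500000 + 2 * (D + 1)) * k ≤ t := by rw [← hKdef]; exact hKk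
    have h4 : 2 * ((D + 1) * k) ≤ t := by nlinarith
    have h5 : (D + 1) * k = D * k + k := by ring
    omega
  have hk62500 : 500000 * k ≤ t := by
    have h3 : (500000 + 2 * (D + 1)) * k ≤ t := by rw [← hKdef]; exact hKk
    nlinarith
  obtain ⟨hi1a, hi1b⟩ := hi₁ i₀ hi₀1
  -- budgets
  obtain ⟨R₁, hR₁⟩ : ∃ R₁ : ℝ, R₁ = (99865 / 100000) * (i₀ : ℝ) * 16000000 := ⟨_, rfl⟩
  obtain ⟨R₂, hR₂⟩ : ∃ R₂ : ℝ, R₂ = (9991 / 10000) * (i₀ : ℝ) * 16000000 := ⟨_, rfl⟩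
  have hθ0 : 0 < θ := by rw [hθdef]; norm_num
  have hμ0 : 0 ≤ μ := by rw [hμdef]; norm_num
  have hQ : 0 < 13000 := by norm_num
  obtain ⟨b, hb, hW⟩ := Vale.Agent.Lib.P230.Skew31.exists_shears2 (t := t) hQ μ (by rw [← hEdef]; exact h2) i₀ hi₀t
  have hE' : 0 < Emean 13000 μ := by rw [← hEdef]; exact hE
  -- step 1
  have hH : 256 * Real.exp (-(θ * R₂)) * Emean 13000 (μ - θ) ^ i₀ ≤ Emean 13000 μ ^ i₀ := by
    have h1 : Real.exp (-(θ * R₂)) = Real.exp (-((1 / 10000) * (9991 / 10000))) ^ i₀ := by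
      rw [← Real.exp_nat_mul]
      congr 1
      rw [hθdef, hR₂]
      ring
    rw [h1, ← hEdef]
    exact pow_budget _ _ _ κ₁ hE hκ₁def i₀ hi1a
  have hL : 256 * Real.exp (θ * R₁) * Emean 13000 (μ + θ) ^ i₀ ≤ Emean 13000 μ ^ i₀ := by
    have h1 : Real.exp (θ * R₁) = Real.exp ((1 / 10000) * (99865 / 100000)) ^ i₀ := by
      rw [← Real.exp_nat_mul]
      congr 1
      rw [hθdef, hR₁]
      ring
    rw [h1, ← hEdef]
    exact pow_budget _ _ _ κ₂ hE hκ₂def i₀ hi1b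
  -- step 2
  have hdens := good_density (t := t) hQ b μ θ R₁ R₂ hθ0 hμ0 i₀ hi₀t hE' hW hH hL
  obtain ⟨T₀, hT₀⟩ : ∃ T₀ : ℝ, T₀ = (1 / 4) * Emean 13000 μ ^ i₀ * Real.exp (μ * R₁) := ⟨_, rfl⟩
  rw [← hT₀] at hdens
  -- the leaf bound
  have hT₀big : (12692 / 10000 : ℝ) ^ t ≤ T₀ := by
    have h1 : Real.exp (μ * R₁) = Real.exp ((9871 / 20000) * (99865 / 100000)) ^ i₀ := by
      rw [← Real.exp_nat_mul]
      congr 1
      rw [hμdef, hR₁]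
      ring
    have h3 : T₀ = (1 / 4) * Gh ^ i₀ := by
      rw [hT₀, h1, ← hEdef, hGhdef, mul_pow]
      ring
    have hGhξ : Gh / (12692 / 10000) * (12692 / 10000) = Gh := by
      field_simp
    have h4 := leaf_big101 _ hξ D D' k i₀ hD hD' hi₀D
    rw [hGhξ, hi₀] at h4
    rw [h3]
    exact h4
  -- step 3
  have hsmall := small_aux101 t k i₀ hi₀ (two_pow_aux101 t k K htk hk6 (hAk ▸ hkA))
  -- step 4
  obtain ⟨b', -, hb', hgood⟩ := squaring (t := t) hQ b hb i₀ k (by omega) T₀ R₂ (1 / 16)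
    (by norm_num) (by norm_num)
    (by
      have h3 : ∀ x : ℝ, (1 / 16 : ℝ) * x = x / 16 := fun x => by ring
      rw [h3]
      exact hdens)
    hsmall
  rw [hi₀, hR₂] at hgood
  -- step 5
  refine ⟨Tmat 13000 b' (1 / 4000), ?_, ?_, ?_⟩
  · rw [Tmat_det]
    norm_num
  · intro i j
    exact gen_abs_le101 b' hb' i j
  -- step 6
  intro a
  obtain ⟨A, hA, hAcard⟩ := lattice_of_good101 b' i₀ k hi₀ hk62500 T₀ hgood a
  exact ⟨A, hA, hT₀big.trans hAcard⟩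

end Vale.Agent.Lib.P230.Skew101
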